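import Vale.Agent.P068.Defs
import Vale.Agent.P068.Main

open Vale.Agent.P068

theorem Vale.Agent.Results.P068.Counter.result :
    (¬ ∀ (α Θ : Type) (E : Set α) (M : Θ → Matroid α), (∀ i, (M i).E = E) →
      HasPackingCoveringPartition E M) ∧
    (¬ ∀ (α : Type) (E : Set α) (M N : Matroid α), M.E = E → N.E = E →
      SatisfiesIntersection E M N) ∧
    ∃ M N : Matroid ℕ, M.E = Set.univ ∧ N.E = Set.univ ∧ M.dual = M ∧ N.dual = N ∧
      ¬ HasPackingCoveringPartition Set.univ (fun i : Fin 2 => if i = 0 then M else N) ∧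
      ¬ SatisfiesIntersection Set.univ M N := by
  obtain ⟨M, N, h1, h2, h3, h4, h5, h6⟩ := counterexample
  have e : (fun i : Fin 2 => if i = 0 then M else N) = ![M, N] := by
    funext i
    fin_cases i <;> simp
  refine ⟨fun h => h5 (h ℕ (Fin 2) Set.univ ![M, N] ?_), fun h => h6 (h ℕ Set.univ M N h1 h2),
    M, N, h1, h2, h3, h4, by rwa [e], h6⟩
  intro i
  fin_cases i
  · exact h1
  · exact h2
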